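import Vale.Agent.P007.Main

open MeasureTheory Filter Topology

namespace Vale.Agent.Results.P007.Composite

open Vale.Agent.P007

/-- (1) For every composite `n ≥ 4` equidistribution of the packets fails, already for maximal
orders: there are totally real fields `K_i` of degree `n` with `|Disc O_i| → ∞` (and `O_i` the
full ring of integers) whose packets all avoid one fixed nonempty open set `U`, so no
subsequence of the packet measures converges to `m_n`.
(2) In every degree, convergence to `m_n` forces every element of `O_i` outside `ℤ` to have a
conjugate of absolute value `> T`, for all large `i`, for every fixed `T`. -/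
theorem result :
    (∀ n : ℕ, 4 ≤ n → ¬ n.Prime →
      ∃ (D : ℕ → Datum n) (U : Set (X n)),
        (∀ i, (D i).O = (D i).maxOrder) ∧
        Tendsto (fun i => (D i).absDisc) atTop atTop ∧
        IsOpen U ∧ U.Nonempty ∧
        (∀ i, (D i).Avoids U) ∧
        (∀ i, (D i).packetMeasure U = 0) ∧
        ∀ m : Measure (X n), IsInvariantProb m → 0 < m U ∧
          ∀ φ : ℕ → ℕ, StrictMono φ →
            ¬ ConvergesTo (fun i => (D (φ i)).packetMeasure) m) ∧
    (∀ (n : ℕ) (D : ℕ → Datum n) (m : Measure (X n)), IsInvariantProb m →
      ConvergesTo (fun i => (D i).packetMeasure) m →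
      ∀ T : ℝ, ∀ᶠ i in atTop, (D i).NoSmallElement T) :=
  ⟨composite, fun _ D m hm hconv T => necessary D m hm hconv T⟩

end Vale.Agent.Results.P007.Composite
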